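import Vale.Agent.P331.F.Rows

/-!
# Small facts on thinnings and on the constants
-/

set_option autoImplicit false
set_option linter.unusedSectionVars false

namespace Vale.Agent.P331.H400

open Finset Vale.Agent.P331 Vale.Agent.P331.H250 Vale.Agent.P331.F
open scoped Classical

theorem ind_nonneg (P : Prop) : 0 ≤ F.ind P := by
  unfold F.ind
  split_ifs <;> norm_num

theorem ind_le_one (P : Prop) : F.ind P ≤ 1 := by
  unfold F.ind
  split_ifs <;> norm_num

theorem ind_mono {P Q : Prop} (h : P → Q) : F.ind P ≤ F.ind Q := by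
  unfold F.ind
  split_ifs with h1 h2
  · exact le_rfl
  · exact absurd (h h1) h2
  · norm_num
  · exact le_rfl

theorem ind_or {P Q R : Prop} (h : P → Q ∨ R) : F.ind P ≤ F.ind Q + F.ind R := by
  by_cases hP : P
  · rcases h hP with hQ | hR
    · have := ind_nonneg R
      have e : F.ind Q = 1 := if_pos hQ
      have := ind_le_one P
      linarith
    · have := ind_nonneg Q
      have e : F.ind R = 1 := if_pos hR
      have := ind_le_one P
      linarith
  · have e : F.ind P = 0 := if_neg hP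
    have := ind_nonneg Q
    have := ind_nonneg R
    linarith

section

variable {E : Type} [Fintype E]

theorem Th_nonneg {t : ℝ} (h0 : 0 ≤ t) (h1 : t ≤ 1) (S : Finset E) {f : Finset E → ℝ}
    (hf : ∀ G, 0 ≤ f G) : 0 ≤ Th t S f :=
  TH_nonneg (fun _ => h0) (fun _ => h1) S fun G _ => hf G

theorem Th_mono' {t : ℝ} (h0 : 0 ≤ t) (h1 : t ≤ 1) (S : Finset E) {f f' : Finset E → ℝ}
    (hf : ∀ G, G ⊆ S → f G ≤ f' G) : Th t S f ≤ Th t S f' :=
  TH_mono (fun _ => h0) (fun _ => h1) S hf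

theorem Th_mono {t : ℝ} (h0 : 0 ≤ t) (h1 : t ≤ 1) (S : Finset E) {f f' : Finset E → ℝ}
    (hf : ∀ G, f G ≤ f' G) : Th t S f ≤ Th t S f' :=
  TH_mono (fun _ => h0) (fun _ => h1) S fun G _ => hf G

theorem Th_const (t : ℝ) (S : Finset E) (c : ℝ) : Th t S (fun _ => c) = c := TH_const _ _ _

theorem Th_add (t : ℝ) (S : Finset E) (f f' : Finset E → ℝ) :
    Th t S (fun G => f G + f' G) = Th t S f + Th t S f' := TH_add _ _ _ _

theorem Th_mul (t : ℝ) (S : Finset E) (c : ℝ) (f : Finset E → ℝ) :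
    Th t S (fun G => c * f G) = c * Th t S f := TH_mul _ _ _ _

theorem Th_sum {ι : Type*} (s : Finset ι) (t : ℝ) (S : Finset E) (f : ι → Finset E → ℝ) :
    Th t S (fun G => ∑ i ∈ s, f i G) = ∑ i ∈ s, Th t S (f i) := TH_sum _ _ _ _

theorem Th_le_one {t : ℝ} (h0 : 0 ≤ t) (h1 : t ≤ 1) (S : Finset E) {f : Finset E → ℝ}
    (hf : ∀ G, f G ≤ 1) : Th t S f ≤ 1 :=
  (Th_mono h0 h1 S hf).trans (Th_const t S 1).le

/-- Markov -/
theorem Th_markov {t : ℝ} (h0 : 0 ≤ t) (h1 : t ≤ 1) (S : Finset E) {f : Finset E → ℝ}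
    (hf : ∀ G, 0 ≤ f G) {c : ℝ} (P : Finset E → Prop) (hP : ∀ G, P G → c ≤ f G) :
    c * Th t S (fun G => F.ind (P G)) ≤ Th t S f := by
  rw [← Th_mul]
  refine Th_mono h0 h1 S fun G => ?_
  unfold F.ind
  split_ifs with h
  · rw [mul_one]; exact hP G h
  · rw [mul_zero]; exact hf G

end

/-! ## The constants -/

section

variable {p g n lam : ℝ} {B : ℕ}

theorem B1 (h : Cst p g n lam B) : (16 : ℝ) ≤ B := by exact_mod_cast h.B16

theorem xx_cast (B j : ℕ) : (xx B j : ℝ) = (B : ℝ) ^ 200 ^ j := by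
  unfold xx
  push_cast
  rfl

theorem xx_succ (B j : ℕ) : (xx B (j + 1) : ℝ) = (xx B j : ℝ) ^ 200 := by
  rw [xx_cast, xx_cast, ← pow_mul, pow_succ]

theorem xx_ge (h : Cst p g n lam B) (j : ℕ) : (B : ℝ) ≤ xx B j := by
  rw [xx_cast]
  have h1 : (1 : ℝ) ≤ B := by linarith [B1 h]
  calc (B : ℝ) = (B : ℝ) ^ 1 := (pow_one _).symm
    _ ≤ (B : ℝ) ^ 200 ^ j := pow_le_pow_right₀ h1 (Nat.one_le_pow _ _ (by norm_num))

theorem xx_ge16 (h : Cst p g n lam B) (j : ℕ) : (16 : ℝ) ≤ xx B j := (B1 h).trans (xx_ge h j)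

theorem p_le (h : Cst p g n lam B) : p ≤ (1 - p) * g := by
  have h1 : (1 : ℝ) ≤ (B : ℝ) ^ 24000 := one_le_pow₀ (by linarith [B1 h])
  have h2 := h1.trans h.lam0
  rwa [le_div_iff₀ h.p0, one_mul] at h2

theorem p_div (h : Cst p g n lam B) : p / ((1 - p) * g) ≤ ((B : ℝ) ^ 24000)⁻¹ := by
  have hp := h.p0
  have h2 : (0 : ℝ) < (B : ℝ) ^ 24000 := pow_pos (by linarith [B1 h]) _
  have h3 : 0 < (1 - p) * g := mul_pos (by linarith [h.p1]) h.g0
  rw [div_le_iff₀ h3, ← div_eq_inv_mul, le_div_iff₀ h2]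
  have h4 := h.lam0
  rw [le_div_iff₀ hp] at h4
  linarith

theorem q_pos (h : Cst p g n lam B) : 0 < (1 - p) * (g + n) :=
  mul_pos (by linarith [h.p1]) (by linarith [h.g0, h.n0])

theorem q_le (h : Cst p g n lam B) : (1 - p) * (g + n) ≤ 1 / 4 := by
  have := h.g0
  have := h.gn
  have := h.n1
  have := h.n0
  have := h.p0
  nlinarith

theorem q_ge (h : Cst p g n lam B) : 3 / 4 * n ≤ (1 - p) * (g + n) := by
  have := h.g0
  have := h.n0
  have := h.p1
  nlinarith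

theorem JJ_nonneg {E : Type} [Fintype E] {q : ℝ} (h0 : 0 ≤ q) (h1 : q ≤ 1)
    (D : Finset E → Prop) (b : E) : 0 ≤ JJ q D b :=
  Th_nonneg h0 h1 _ fun _ => ind_nonneg _

end

end Vale.Agent.P331.H400
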