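import Vale.Agent.P331.H400.Base

/-!
# Row Fin: the blame of one level
-/

set_option autoImplicit false
set_option linter.unusedSectionVars false

namespace Vale.Agent.P331.H400

open Finset Vale.Agent.P331 Vale.Agent.P331.H250 Vale.Agent.P331.F
open scoped Classical

theorem rowFin (hR : RowR) (hL : RowL) : RowFin := by
  intro p g n lam B hC E _ D hD j b hj
  have hp0 := hC.p0
  have hp1 : p ≤ 1 := by linarith [hC.p1]
  have hJ0 : 0 ≤ JJ ((1 - p) * (g + n)) D b :=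
    JJ_nonneg (q_pos hC).le (by linarith [q_le hC]) D b
  have h1 := hR p g n lam B hC E D hD j b
  have h2 := hL p g n lam B hC E D hD j hj
  have hx1 : (1 : ℝ) ≤ (xx B j : ℝ) := by linarith [xx_ge16 hC j]
  generalize JJ ((1 - p) * (g + n)) D b = J at h1 hJ0 ⊢
  have A1 : Th p univ (fun V => F.ind (∃ X ⊆ V, b ∈ X ∧
      Bad g (n / (1 - g)) B j D (univ \ V) X)) ≤ (xx B j : ℝ) ^ 27925 * J ^ 600 := by
    refine le_trans (Th_mono hp0.le hp1 _ fun V => ind_mono ?_) h1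
    rintro ⟨X, hX, hb, hB⟩
    exact ⟨X, hX, hb, hB.1, hB.2.1⟩
  have A2 : Th p univ (fun V => F.ind (∃ X ⊆ V, b ∈ X ∧
      Bad g (n / (1 - g)) B j D (univ \ V) X)) ≤ ((xx B j : ℝ) ^ 99)⁻¹ := by
    refine le_trans (Th_mono hp0.le hp1 _ fun V => ind_mono ?_) h2
    rintro ⟨X, hX, hb, hB⟩
    exact ⟨X, hX, hB⟩
  generalize (xx B j : ℝ) = x at A1 A2 hx1 ⊢
  have hx0 : 0 < x := by linarith
  rcases le_total ((x ^ 80)⁻¹) J with h | h
  · refine A2.trans ?_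
    have h3 : (x ^ 99)⁻¹ ≤ x⁻¹ * (x ^ 80)⁻¹ := by
      rw [← mul_inv, ← pow_succ']
      exact inv_anti₀ (pow_pos hx0 _) (pow_le_pow_right₀ hx1 (by norm_num))
    exact h3.trans (mul_le_mul_of_nonneg_left h (inv_nonneg.2 hx0.le))
  · refine A1.trans ?_
    have h3 : x ^ 27925 * J ^ 600 = (x ^ 27925 * J ^ 599) * J := by
      rw [mul_assoc, ← pow_succ]
    rw [h3]
    refine mul_le_mul_of_nonneg_right ?_ hJ0
    have h4 : J ^ 599 ≤ (x ^ 47920)⁻¹ := by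
      calc J ^ 599 ≤ ((x ^ 80)⁻¹) ^ 599 := pow_le_pow_left₀ hJ0 h _
        _ = (x ^ 47920)⁻¹ := by rw [inv_pow, ← pow_mul]
    have h5 : x ^ 27925 * J ^ 599 ≤ x ^ 27925 * (x ^ 47920)⁻¹ :=
      mul_le_mul_of_nonneg_left h4 (pow_nonneg hx0.le _)
    refine h5.trans ?_
    rw [← div_eq_mul_inv, div_le_iff₀ (pow_pos hx0 _), ← div_eq_inv_mul,
      le_div_iff₀ hx0, ← pow_succ]
    exact pow_le_pow_right₀ hx1 (by norm_num)

end Vale.Agent.P331.H400
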