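import Vale.Agent.P331.H400.Base

/-!
# Row L: Lemma L from its first part, the context events and Bessel
-/

set_option autoImplicit false
set_option linter.unusedSectionVars false

namespace Vale.Agent.P331.H400

open Finset Vale.Agent.P331 Vale.Agent.P331.H250 Vale.Agent.P331.F
open scoped Classical

section

variable {E : Type} [Fintype E]

theorem ind_exists_le (s : Finset E) (P : E → Prop) :
    F.ind (∃ f ∈ s, P f) ≤ ∑ f ∈ s, F.ind (P f) := by
  by_cases h : ∃ f ∈ s, P f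
  · obtain ⟨f, hf, hP⟩ := h
    have h1 : F.ind (P f) = 1 := if_pos hP
    have h2 := single_le_sum (f := fun f => F.ind (P f)) (fun i _ => ind_nonneg (P i)) hf
    have h3 := ind_le_one (∃ f ∈ s, P f)
    linarith
  · have h1 : F.ind (∃ f ∈ s, P f) = 0 := if_neg h
    rw [h1]
    exact sum_nonneg fun i _ => ind_nonneg _

/-- if no good fragment lies in `X ∩ s` then no good fragment lies in `X` or some element outside
`s` is needed -/
theorem need_or {t : ℝ} {l : Lv} {D : Finset E → Prop} {V G X s : Finset E} (hX : X ⊆ V)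
    (h : ¬ ∃ Y ⊆ X ∩ s, good t l D (univ \ V) G Y) :
    (¬ ∃ Y ⊆ X, good t l D (univ \ V) G Y) ∨ ∃ f ∈ univ \ s, Need t l D V G f := by
  by_cases h1 : ∃ Y ⊆ X, good t l D (univ \ V) G Y
  · right
    obtain ⟨Y0, hY0, hg0⟩ := h1
    obtain ⟨Y, hY, hg, hmin⟩ := H352.exists_min (P := fun Y => good t l D (univ \ V) G Y) Y0 hg0
    have h2 : ¬ Y ⊆ X ∩ s := fun h3 => h ⟨Y, h3, hg⟩
    obtain ⟨f, hf, hfn⟩ := Finset.not_subset.1 h2
    have hfX : f ∈ X := hY0 (hY hf)
    refine ⟨f, ?_, hX hfX, Y, (hY.trans hY0).trans hX, hf, hg, hmin _ (erase_ssubset hf)⟩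
    rw [mem_sdiff]
    exact ⟨mem_univ _, fun h4 => hfn (mem_inter.2 ⟨hfX, h4⟩)⟩
  · left
    exact h1

end

theorem rowL (h1 : RowL1) (hctx : RowCtx) (hbes : RowBes) : RowL := by
  intro p g n lam B hC E _ D hD j hj
  obtain ⟨i, rfl⟩ : ∃ i, j = i + 1 := ⟨j - 1, by omega⟩
  have hp0 := hC.p0
  have hp1 : p ≤ 1 := by linarith [hC.p1]
  have hg0 := hC.g0
  have hg1 : g ≤ 1 := by linarith [hC.gn, hC.n1]
  have hq0 := q_pos hC
  have hq4 := q_le hC
  have hJ0 : ∀ f, 0 ≤ JJ ((1 - p) * (g + n)) D f := fun f =>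
    JJ_nonneg hq0.le (by linarith) D f
  have hy16 := xx_ge16 hC i
  have hyB := xx_ge hC i
  have hx := xx_succ B i
  have hbes' := hbes E D hD _ hq0 (by linarith)
  have hctx' := hctx p g n lam B hC E D hD i
  have h1' := h1 p g n lam B hC E D hD (i + 1) hj
  rw [Nat.add_sub_cancel] at h1'
  -- the visible elements
  have hB' : 1 / (4 * ((1 - p) * (g + n) * (1 - (1 - p) * (g + n)))) ≤ (xx B i : ℝ) := by
    have hn := hC.n0
    have h3 : 9 / 4 * n ≤ 4 * ((1 - p) * (g + n) * (1 - (1 - p) * (g + n))) := by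
      have := q_ge hC
      nlinarith
    have h4 : 1 / (4 * ((1 - p) * (g + n) * (1 - (1 - p) * (g + n)))) ≤ 1 / (9 / 4 * n) :=
      one_div_le_one_div_of_le (by positivity) h3
    have h5 : 1 / (9 / 4 * n) ≤ 4 / n := by
      rw [div_le_div_iff₀ (by positivity) hn]
      nlinarith
    linarith [hC.nB]
  have hbes2 := hbes'.trans hB'
  obtain ⟨Es, hEs⟩ : ∃ Es : Finset E, Es = univ.filter
      (fun f => ((xx B i : ℝ) ^ 80)⁻¹ ≤ JJ ((1 - p) * (g + n)) D f) := ⟨_, rfl⟩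
  have hcard : Es.card ≤ xx B i ^ 161 := by
    have h3 : (Es.card : ℝ) * (((xx B i : ℝ) ^ 80)⁻¹) ^ 2 ≤ (xx B i : ℝ) := by
      refine le_trans ?_ hbes2
      calc (Es.card : ℝ) * (((xx B i : ℝ) ^ 80)⁻¹) ^ 2
          = ∑ f ∈ Es, (((xx B i : ℝ) ^ 80)⁻¹) ^ 2 := by
            rw [sum_const, nsmul_eq_mul]
        _ ≤ ∑ f ∈ Es, JJ ((1 - p) * (g + n)) D f ^ 2 := by
            refine sum_le_sum fun f hf => ?_
            rw [hEs, mem_filter] at hf
            exact pow_le_pow_left₀ (by positivity) hf.2 _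
        _ ≤ ∑ f, JJ ((1 - p) * (g + n)) D f ^ 2 :=
            sum_le_sum_of_subset_of_nonneg (subset_univ _) fun f _ _ => sq_nonneg _
    have h4 : (Es.card : ℝ) ≤ (xx B i : ℝ) ^ 161 := by
      rw [inv_pow, ← pow_mul, ← div_eq_mul_inv, div_le_iff₀ (by positivity)] at h3
      calc (Es.card : ℝ) ≤ (xx B i : ℝ) * (xx B i : ℝ) ^ (80 * 2) := h3
        _ = (xx B i : ℝ) ^ 161 := by rw [← pow_succ']
    exact_mod_cast h4
  -- the union bound over the invisible elements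
  have hW : Th p univ (fun V => Th g (univ \ V) (fun G =>
      F.ind (∃ f ∈ univ \ Es, Need (n / (1 - g)) (lev B i) D V G f))) ≤
      (xx B i : ℝ) ^ 27601 * ((xx B i : ℝ) ^ 47840)⁻¹ := by
    calc Th p univ (fun V => Th g (univ \ V) (fun G =>
          F.ind (∃ f ∈ univ \ Es, Need (n / (1 - g)) (lev B i) D V G f)))
        ≤ Th p univ (fun V => Th g (univ \ V) (fun G =>
          ∑ f ∈ univ \ Es, F.ind (Need (n / (1 - g)) (lev B i) D V G f))) :=
          Th_mono hp0.le hp1 _ fun V => Th_mono hg0.le hg1 _ fun G => ind_exists_le _ _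
      _ = ∑ f ∈ univ \ Es, Th p univ (fun V => Th g (univ \ V) (fun G =>
          F.ind (Need (n / (1 - g)) (lev B i) D V G f))) := by
          simp only [Th_sum]
      _ ≤ ∑ f ∈ univ \ Es, ((xx B i : ℝ) ^ 27600 * ((xx B i : ℝ) ^ 47840)⁻¹) *
          JJ ((1 - p) * (g + n)) D f ^ 2 := by
          refine sum_le_sum fun f hf => (hctx' f).trans ?_
          have hf2 : JJ ((1 - p) * (g + n)) D f ≤ ((xx B i : ℝ) ^ 80)⁻¹ := by
            rw [mem_sdiff, hEs, mem_filter] at hf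
            by_contra hlt
            exact hf.2 ⟨mem_univ _, (not_le.1 hlt).le⟩
          have h3 : JJ ((1 - p) * (g + n)) D f ^ 598 ≤ ((xx B i : ℝ) ^ 47840)⁻¹ := by
            calc JJ ((1 - p) * (g + n)) D f ^ 598 ≤ (((xx B i : ℝ) ^ 80)⁻¹) ^ 598 :=
                  pow_le_pow_left₀ (hJ0 f) hf2 _
              _ = ((xx B i : ℝ) ^ 47840)⁻¹ := by rw [inv_pow, ← pow_mul]
          have h4 : ((xx B i : ℝ) ^ 23) ^ 1200 * JJ ((1 - p) * (g + n)) D f ^ 600 =
              ((xx B i : ℝ) ^ 27600 * JJ ((1 - p) * (g + n)) D f ^ 598) *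
                JJ ((1 - p) * (g + n)) D f ^ 2 := by
            rw [mul_assoc, ← pow_add, ← pow_mul]
          rw [h4]
          exact mul_le_mul_of_nonneg_right
            (mul_le_mul_of_nonneg_left h3 (by positivity)) (sq_nonneg _)
      _ = ((xx B i : ℝ) ^ 27600 * ((xx B i : ℝ) ^ 47840)⁻¹) *
          ∑ f ∈ univ \ Es, JJ ((1 - p) * (g + n)) D f ^ 2 := by rw [mul_sum]
      _ ≤ ((xx B i : ℝ) ^ 27600 * ((xx B i : ℝ) ^ 47840)⁻¹) * (xx B i : ℝ) := by
          refine mul_le_mul_of_nonneg_left (le_trans ?_ hbes2) (by positivity)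
          exact sum_le_sum_of_subset_of_nonneg (subset_univ _) fun f _ _ => sq_nonneg _
      _ = (xx B i : ℝ) ^ 27601 * ((xx B i : ℝ) ^ 47840)⁻¹ := by ring
  -- Markov
  have hM := Th_markov hp0.le hp1 univ (f := fun V => Th g (univ \ V) (fun G =>
      F.ind (∃ f ∈ univ \ Es, Need (n / (1 - g)) (lev B i) D V G f)))
      (fun V => Th_nonneg hg0.le hg1 _ fun G => ind_nonneg _) (c := ((xx B i : ℝ) ^ 163)⁻¹)
      (fun V => ((xx B i : ℝ) ^ 163)⁻¹ ≤ Th g (univ \ V) (fun G =>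
      F.ind (∃ f ∈ univ \ Es, Need (n / (1 - g)) (lev B i) D V G f))) (fun V h => h)
  have hM2 : Th p univ (fun V => F.ind (((xx B i : ℝ) ^ 163)⁻¹ ≤ Th g (univ \ V) (fun G =>
      F.ind (∃ f ∈ univ \ Es, Need (n / (1 - g)) (lev B i) D V G f)))) ≤
      ((xx B (i + 1) : ℝ) ^ 100)⁻¹ := by
    have hy0 : (0 : ℝ) < (xx B i : ℝ) := by linarith
    have h3 := hM.trans hW
    rw [inv_mul_le_iff₀ (by positivity)] at h3
    refine h3.trans ?_
    rw [hx, ← pow_mul, ← mul_assoc, ← pow_add, ← div_eq_mul_inv,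
      div_le_iff₀ (by positivity), ← div_eq_inv_mul, le_div_iff₀ (by positivity), ← pow_add]
    exact pow_le_pow_right₀ (by linarith) (by norm_num)
  -- the pointwise inequality
  have hpt : ∀ V : Finset E, F.ind (∃ X ⊆ V, Bad g (n / (1 - g)) B (i + 1) D (univ \ V) X) ≤
      F.ind (∃ X ⊆ V, ff g (n / (1 - g)) (lev B (i + 1)) D (univ \ V) X ≤ (lev B (i + 1)).τ ∧
        ((xx B i : ℝ) ^ 163)⁻¹ ≤ Th g (univ \ V) (fun G =>
          F.ind (¬ ∃ Y ⊆ X, good (n / (1 - g)) (lev B i) D (univ \ V) G Y))) +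
      F.ind (((xx B i : ℝ) ^ 163)⁻¹ ≤ Th g (univ \ V) (fun G =>
        F.ind (∃ f ∈ univ \ Es, Need (n / (1 - g)) (lev B i) D V G f))) := by
    intro V
    refine ind_or ?_
    rintro ⟨X, hX, hv, -, hno⟩
    rw [Nat.add_sub_cancel] at hno
    by_contra hcon
    rw [not_or] at hcon
    obtain ⟨hc1, hc2⟩ := hcon
    have hff : ff g (n / (1 - g)) (lev B (i + 1)) D (univ \ V) X ≤ (lev B (i + 1)).τ := by
      refine hv.2.trans ?_
      have h3 : (0 : ℝ) ≤ (lev B (i + 1)).τ := by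
        simp only [lev]
        positivity
      exact div_le_self h3 (by linarith [(Nat.cast_nonneg X.card : (0 : ℝ) ≤ X.card)])
    have hc1' : Th g (univ \ V) (fun G =>
          F.ind (¬ ∃ Y ⊆ X, good (n / (1 - g)) (lev B i) D (univ \ V) G Y)) <
          ((xx B i : ℝ) ^ 163)⁻¹ := by
      by_contra h3
      exact hc1 ⟨X, hX, hff, not_lt.1 h3⟩
    rw [not_le] at hc2
    have hnv := hno (X ∩ Es) inter_subset_left
    unfold vio at hnv
    have hcX : (X ∩ Es).card ≤ (lev B i).Z := (card_le_card inter_subset_right).trans hcard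
    have h3 : (lev B i).τ / ((X ∩ Es).card + 1) <
        ff g (n / (1 - g)) (lev B i) D (univ \ V) (X ∩ Es) := by
      by_contra h4
      exact hnv ⟨hcX, not_lt.1 h4⟩
    have h4 : ff g (n / (1 - g)) (lev B i) D (univ \ V) (X ∩ Es) ≤
        Th g (univ \ V) (fun G =>
          F.ind (¬ ∃ Y ⊆ X, good (n / (1 - g)) (lev B i) D (univ \ V) G Y)) +
        Th g (univ \ V) (fun G =>
          F.ind (∃ f ∈ univ \ Es, Need (n / (1 - g)) (lev B i) D V G f)) := by
      rw [← Th_add]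
      exact Th_mono hg0.le hg1 _ fun G => ind_or fun h5 => need_or hX h5
    have h5 : 2 * ((xx B i : ℝ) ^ 163)⁻¹ ≤ (lev B i).τ / ((X ∩ Es).card + 1) := by
      have hy0 : (0 : ℝ) < (xx B i : ℝ) := by linarith
      have h6 : ((X ∩ Es).card : ℝ) + 1 ≤ (xx B i : ℝ) ^ 162 / 2 := by
        have h7 : ((X ∩ Es).card : ℝ) ≤ (xx B i : ℝ) ^ 161 := by
          have : (X ∩ Es).card ≤ xx B i ^ 161 := hcX
          exact_mod_cast this
        have h8 : (1 : ℝ) ≤ (xx B i : ℝ) ^ 161 := one_le_pow₀ (by linarith)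
        have h9 : (xx B i : ℝ) ^ 162 = (xx B i : ℝ) * (xx B i : ℝ) ^ 161 := by
          rw [← pow_succ']
        rw [h9]
        nlinarith
      have h7 : (0 : ℝ) < ((X ∩ Es).card : ℝ) + 1 := by positivity
      simp only [lev]
      rw [le_div_iff₀ h7]
      calc 2 * ((xx B i : ℝ) ^ 163)⁻¹ * (((X ∩ Es).card : ℝ) + 1)
          ≤ 2 * ((xx B i : ℝ) ^ 163)⁻¹ * ((xx B i : ℝ) ^ 162 / 2) :=
            mul_le_mul_of_nonneg_left h6 (by positivity)
        _ = (xx B i : ℝ)⁻¹ := by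
            have : (xx B i : ℝ) ^ 163 = (xx B i : ℝ) ^ 162 * (xx B i : ℝ) := by
              rw [← pow_succ]
            rw [this]
            field_simp
    linarith
  calc Th p univ (fun V => F.ind (∃ X ⊆ V, Bad g (n / (1 - g)) B (i + 1) D (univ \ V) X))
      ≤ Th p univ (fun V => F.ind (∃ X ⊆ V, ff g (n / (1 - g)) (lev B (i + 1)) D (univ \ V) X ≤
          (lev B (i + 1)).τ ∧ ((xx B i : ℝ) ^ 163)⁻¹ ≤ Th g (univ \ V) (fun G =>
          F.ind (¬ ∃ Y ⊆ X, good (n / (1 - g)) (lev B i) D (univ \ V) G Y))) +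
        F.ind (((xx B i : ℝ) ^ 163)⁻¹ ≤ Th g (univ \ V) (fun G =>
          F.ind (∃ f ∈ univ \ Es, Need (n / (1 - g)) (lev B i) D V G f)))) :=
        Th_mono hp0.le hp1 _ hpt
    _ ≤ ((xx B (i + 1) : ℝ) ^ 119)⁻¹ + ((xx B (i + 1) : ℝ) ^ 100)⁻¹ := by
        rw [Th_add]
        exact add_le_add h1' hM2
    _ ≤ ((xx B (i + 1) : ℝ) ^ 99)⁻¹ := by
        have hz16 := xx_ge16 hC (i + 1)
        generalize (xx B (i + 1) : ℝ) = z at hz16
        have hz0 : 0 < z := by linarith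
        have h3 : (z ^ 119)⁻¹ ≤ (z ^ 100)⁻¹ :=
          inv_anti₀ (pow_pos hz0 _) (pow_le_pow_right₀ (by linarith) (by norm_num))
        have h4 : (z ^ 99)⁻¹ = z * (z ^ 100)⁻¹ := by
          have : z ^ 100 = z ^ 99 * z := by rw [← pow_succ]
          rw [this]
          field_simp
        have h5 : 0 < (z ^ 100)⁻¹ := inv_pos.2 (pow_pos hz0 _)
        rw [h4]
        nlinarith

end Vale.Agent.P331.H400
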